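import Vale.Agent.P358.Final

namespace Vale.Agent.Results.P358.A_full

open Vale.Agent.P358

theorem result (γ ν : ℝ) (hγ : γ ∈ Set.Icc (0 : ℝ) 1) (hν : ν ∈ Set.Icc (0 : ℝ) 1) :
    capacity (gad γ ν) = holevo (gad γ ν) ∧
    (∀ n : ℕ, 1 ≤ n → holevo (tensorPow (gad γ ν) n) = n * holevo (gad γ ν)) ∧
    IsGreatest (gain γ ν '' Set.Icc 0 1) (capacity (gad γ ν)) ∧
    IsGreatest (holevoSet (gad γ ν)) (holevo (gad γ ν)) ∧
    (∀ n : ℕ, 1 ≤ n →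
      IsGreatest (holevoSet (tensorPow (gad γ ν) n)) (holevo (tensorPow (gad γ ν) n))) :=
  final γ ν hγ hν

end Vale.Agent.Results.P358.A_full
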